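import Vale.Agent.P183.R2.H668.KW.Spec

set_option autoImplicit false

/-!
Row A1: counting independent sets of a locally dense relation (Kleitman and Winston).
-/

namespace Vale.Agent.P183.R2.H668.KW

open Finset

theorem rowA1 : StA1 := by
  intro V _ H _ hsym β R hβ0 hβ1 B
  induction B using Finset.strongInduction with
  | H B ih =>
    intro hB q d hq
    rcases le_or_gt B.card R with hBR | hBR
    · -- few points
      calc ((B.powersetCard d).filter (fun I => ∀ x ∈ I, ∀ y ∈ I, x ≠ y → ¬ H x y)).card
          ≤ (B.powersetCard d).card := card_filter_le _ _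
        _ = B.card.choose d := card_powersetCard _ _
        _ ≤ R.choose d := Nat.choose_le_choose _ hBR
        _ = B.card.choose 0 * R.choose (d - 0) := by simp
        _ ≤ ∑ s ∈ range (q + 1), B.card.choose s * R.choose (d - s) :=
          single_le_sum (f := fun s => B.card.choose s * R.choose (d - s))
            (fun _ _ => Nat.zero_le _) (mem_range.2 (Nat.succ_pos q))
    · obtain _ | q := q
      · exfalso
        rw [pow_zero, one_mul] at hq
        have : B.card ≤ R := by exact_mod_cast hq
        omega
      obtain _ | d := d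
      · calc ((B.powersetCard 0).filter (fun I => ∀ x ∈ I, ∀ y ∈ I, x ≠ y → ¬ H x y)).card
            ≤ (B.powersetCard 0).card := card_filter_le _ _
          _ = B.card.choose 0 * R.choose (0 - 0) := by simp
          _ ≤ ∑ s ∈ range (q + 1 + 1), B.card.choose s * R.choose (0 - s) :=
            single_le_sum (f := fun s => B.card.choose s * R.choose (0 - s))
              (fun _ _ => Nat.zero_le _) (mem_range.2 (Nat.succ_pos _))
      obtain ⟨x, hx, hxd⟩ := hB B (Subset.refl B) hBR
      set B1 := B.erase x with hB1
      set B2 := B1.filter (fun y => ¬ H x y) with hB2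
      have hB1s : B1 ⊂ B := erase_ssubset hx
      have hB2s : B2 ⊂ B := lt_of_le_of_lt (filter_subset _ _) hB1s
      have hc1 : B1.card + 1 = B.card := card_erase_add_one hx
      have hc2 : B2.card ≤ B1.card := card_filter_le _ _
      have h1β : 0 ≤ 1 - β := by linarith
      -- the two families
      have hsplit : ((B.powersetCard (d + 1)).filter
          (fun I => ∀ x ∈ I, ∀ y ∈ I, x ≠ y → ¬ H x y)).card ≤
          ((B1.powersetCard (d + 1)).filter (fun I => ∀ x ∈ I, ∀ y ∈ I, x ≠ y → ¬ H x y)).card +
          ((B2.powersetCard d).filter (fun I => ∀ x ∈ I, ∀ y ∈ I, x ≠ y → ¬ H x y)).card := by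
        rw [← card_filter_add_card_filter_not (s := (B.powersetCard (d + 1)).filter
          (fun I => ∀ x ∈ I, ∀ y ∈ I, x ≠ y → ¬ H x y)) (fun I => x ∉ I)]
        refine Nat.add_le_add (card_le_card ?_) ?_
        · intro I hI
          simp only [mem_filter, mem_powersetCard] at hI ⊢
          obtain ⟨⟨⟨hIB, hIc⟩, hind⟩, hxI⟩ := hI
          refine ⟨⟨fun y hy => mem_erase.2 ⟨fun h => hxI (h ▸ hy), hIB hy⟩, hIc⟩, hind⟩
        · refine card_le_card_of_injOn (fun I => I.erase x) ?_ ?_
          · intro I hI
            simp only [coe_filter, mem_filter, mem_powersetCard, Set.mem_ofPred_eq, not_not] at hI ⊢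
            obtain ⟨⟨⟨hIB, hIc⟩, hind⟩, hxI⟩ := hI
            refine ⟨⟨?_, ?_⟩, ?_⟩
            · intro y hy
              have hy' := mem_erase.1 hy
              exact mem_filter.2 ⟨mem_erase.2 ⟨hy'.1, hIB hy'.2⟩,
                hind x hxI y hy'.2 (Ne.symm hy'.1)⟩
            · rw [card_erase_of_mem hxI, hIc]; rfl
            · intro y hy z hz
              exact hind y (mem_of_mem_erase hy) z (mem_of_mem_erase hz)
          · intro I hI J hJ hIJ
            simp only [coe_filter, mem_filter, mem_powersetCard, Set.mem_ofPred_eq, not_not]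
              at hI hJ
            have h1 := insert_erase hI.2
            have h2 := insert_erase hJ.2
            simp only at hIJ
            rw [← h1, ← h2, hIJ]
      have hq1 : (1 - β) ^ (q + 1) * (B1.card : ℝ) ≤ R := by
        refine le_trans (mul_le_mul_of_nonneg_left ?_ (pow_nonneg h1β _)) hq
        exact_mod_cast (by omega : B1.card ≤ B.card)
      have hcard2 : (B2.card : ℝ) ≤ (1 - β) * B.card := by
        have e1 : B2.card ≤ (B.filter (fun y => ¬ H x y)).card :=
          card_le_card (filter_subset_filter _ (erase_subset _ _))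
        have e2 := card_filter_add_card_filter_not (s := B) (H x)
        have e3 : ((B.filter (H x)).card : ℝ) + ((B.filter (fun y => ¬ H x y)).card : ℝ) =
            B.card := by exact_mod_cast e2
        have e4 : (B2.card : ℝ) ≤ ((B.filter (fun y => ¬ H x y)).card : ℝ) := by exact_mod_cast e1
        nlinarith
      have hq2 : (1 - β) ^ q * (B2.card : ℝ) ≤ R := by
        refine le_trans (mul_le_mul_of_nonneg_left hcard2 (pow_nonneg h1β _)) ?_
        rw [← mul_assoc, ← pow_succ]
        exact hq
      have i1 := ih B1 hB1s (fun B' hB' => hB B' (hB'.trans hB1s.1)) (q + 1) (d + 1) hq1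
      have i2 := ih B2 hB2s (fun B' hB' => hB B' (hB'.trans hB2s.1)) q d hq2
      refine hsplit.trans ((Nat.add_le_add i1 i2).trans ?_)
      have i3 : ∑ s ∈ range (q + 1), B2.card.choose s * R.choose (d - s) ≤
          ∑ s ∈ range (q + 1), B1.card.choose s * R.choose (d - s) :=
        sum_le_sum fun s _ => Nat.mul_le_mul_right _ (Nat.choose_le_choose _ hc2)
      refine (Nat.add_le_add_left i3 _).trans (le_of_eq ?_)
      rw [sum_range_succ' _ (q + 1), sum_range_succ' _ (q + 1), add_right_comm, ← sum_add_distrib]
      congr 1
      · refine sum_congr rfl fun s _ => ?_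
        rw [← hc1, Nat.choose_succ_succ, add_mul, Nat.add_sub_add_right]
        ring
      · simp

end Vale.Agent.P183.R2.H668.KW
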